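import Vale.Agent.P315.Final
import Vale.Agent.P315.Gaps

/-! P315: truly subquadratic `(1+ε)`-approximation of the edit distance, up to the positions of an
alignment that are rough at every polynomial scale. -/

set_option autoImplicit false

namespace Vale.Agent.P315

/-- The bounds `κ`, `S` and the environment for the run on a given tape. -/
theorem run_facts {g K M0 : ℕ} (hg : 21 ≤ g) (hM0 : 2 ≤ M0) {x y : List ℕ} {n b : ℕ}
    (hn : n = max x.length y.length)
    (hb : (n + 2) ^ ((M0 + K + 8) * (100 + 4 * g) + 1) ≤ 2 ^ b) (hsym : ∀ a ∈ x ++ y, a < 2 ^ b)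
    {ρ : ℕ → ℕ} (hρ : ∀ i, ρ i < 2 ^ b) :
    ∃ E : Env, E.ρ = ρ ∧ E.N = 2 ^ b ∧ Big E g K M0 n ∧ Bdd E (State.init x y) := by
  have hpow : ∀ i j, i ≤ j → (n + 2) ^ i ≤ (n + 2) ^ j := fun i j h =>
    Nat.pow_le_pow_right (by omega) h
  have h2 : ∀ j, 2 ^ j ≤ (n + 2) ^ j := fun j => Nat.pow_le_pow_left (by omega) _
  have hlt : ∀ j : ℕ, j ≤ 2 ^ j := fun j => Nat.lt_two_pow_self.le
  have hb0 : 0 < 2 ^ b := Nat.pow_pos (by norm_num)
  have h8 : 8 * n + 8 ≤ (n + 2) ^ (M0 + K + 8) := by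
    have h3 : (n + 2) ^ 4 ≤ (n + 2) ^ (M0 + K + 8) := hpow _ _ (by omega)
    have h4 : (n + 2) ^ 4 = (n + 2) ^ 3 * (n + 2) := pow_succ _ _
    have h5 : 2 ^ 3 ≤ (n + 2) ^ 3 := h2 3
    have h6 : 2 ^ 3 * (n + 2) ≤ (n + 2) ^ 3 * (n + 2) := Nat.mul_le_mul_right _ h5
    omega
  refine ⟨⟨ρ, (n + 2) ^ (M0 + K + 8), 100 + 4 * g, 2 ^ b, ?_, by omega, ?_, hρ⟩, rfl, rfl,
    ⟨h8, ?_, ?_, ?_, ?_, hg, hM0⟩, ?_⟩
  · calc 2 = 2 ^ 1 := rfl
      _ ≤ (n + 2) ^ 1 := h2 1
      _ ≤ _ := hpow _ _ (by omega)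
  · rw [← pow_mul]
    exact lt_of_lt_of_le (Nat.pow_lt_pow_right (by omega) (Nat.lt_succ_self _)) hb
  · exact (hlt K).trans ((h2 K).trans (hpow _ _ (by omega)))
  · exact (hlt M0).trans ((h2 M0).trans (hpow _ _ (by omega)))
  · exact (Nat.pow_le_pow_left (by omega) _).trans (hpow _ _ (by omega))
  · show 4 * g + 10 ≤ 100 + 4 * g
    omega
  · have hgetx : ∀ i, x.getD i 0 < 2 ^ b := by
      intro i
      rcases Nat.lt_or_ge i x.length with h | h
      · rw [List.getD_eq_getElem _ _ h]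
        exact hsym _ (List.mem_append_left _ (List.getElem_mem h))
      · rw [List.getD_eq_default _ _ h]; exact hb0
    have hgety : ∀ i, y.getD i 0 < 2 ^ b := by
      intro i
      rcases Nat.lt_or_ge i y.length with h | h
      · rw [List.getD_eq_getElem _ _ h]
        exact hsym _ (List.mem_append_right _ (List.getElem_mem h))
      · rw [List.getD_eq_default _ _ h]; exact hb0
    refine ⟨fun i => ?_, fun j hj i => ?_, hgetx, hgety⟩
    · show (if i = 0 then x.length else if i = 1 then y.length else 0) ≤ (n + 2) ^ (M0 + K + 8)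
      split_ifs <;> omega
    · show (if j = 0 then x.getD i 0 else if j = 1 then y.getD i 0 else 0) ≤ _
      rw [if_neg (by omega), if_neg (by omega)]
      exact Nat.zero_le _

theorem tape_lt {T b : ℕ} (ρ : Fin T → Fin (2 ^ b)) (i : ℕ) : tape ρ i < 2 ^ b := by
  unfold tape
  split_ifs with h
  · exact (ρ ⟨i, h⟩).isLt
  · exact Nat.pow_pos (by norm_num)

theorem approx (γ : ℝ) (hγ0 : 0 < γ) (hγ1 : γ ≤ 1) (ε : ℝ) (hε : 0 < ε) :
    ∃ (C : ℝ) (k : ℕ) (P : Prog), ∀ (x y : List ℕ) (n b : ℕ), n = max x.length y.length →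
      (n + 2) ^ k ≤ 2 ^ b → (∀ a ∈ x ++ y, a < 2 ^ b) →
      (∀ ρ : ℕ → ℕ, (∀ i, ρ i < 2 ^ b) →
        P.top ρ (State.init x y) < 2 ^ b ∧
        (P.time ρ (State.init x y) : ℝ) ≤ C * ((n : ℝ) + 1) ^ (2 - γ / 22)) ∧
      ∀ T : ℕ, (∀ ρ : ℕ → ℕ, (∀ i, ρ i < 2 ^ b) → (P.run ρ (State.init x y)).coins ≤ T) →
        2 * Nat.card (Fin T → Fin (2 ^ b)) ≤
          3 * Nat.card {ρ : Fin T → Fin (2 ^ b) // Guarantee ε γ x y n (P.output (tape ρ) x y)} := by
  -- parameters
  obtain ⟨g, hg1, hg2⟩ : ∃ g : ℕ, 21 ≤ γ * g ∧ γ / 22 ≤ 1 / (g : ℝ) := by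
    refine ⟨⌈21 / γ⌉₊, ?_, ?_⟩
    · have := Nat.le_ceil (21 / γ)
      rw [div_le_iff₀ hγ0] at this
      linarith
    · have h1 : (⌈21 / γ⌉₊ : ℝ) < 21 / γ + 1 := Nat.ceil_lt_add_one (by positivity)
      have h2 : (0 : ℝ) < ⌈21 / γ⌉₊ := by
        have : 0 < ⌈21 / γ⌉₊ := Nat.ceil_pos.mpr (by positivity)
        exact_mod_cast this
      rw [div_le_div_iff₀ (by norm_num) h2]
      have h3 : γ * (21 / γ + 1) = 21 + γ := by field_simp
      nlinarith
  have hg21 : 21 ≤ g := by
    have : (21 : ℝ) ≤ g := by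
      have h0 : (0 : ℝ) ≤ g := by positivity
      nlinarith
    exact_mod_cast this
  obtain ⟨M0, hM0, hbase⟩ := exists_base g (2 * g) ε hε
  refine ⟨2 * ((1038 + 4 * g + 1692 * (2 * g) : ℕ) : ℝ) +
    ((4 * g + 340) * ((2 * M0) ^ g * (2 * M0) ^ g) : ℕ),
    (M0 + 2 * g + 8) * (100 + 4 * g) + 1, mainProg g (2 * g) M0, ?_⟩
  intro x y n b hn hb hsym
  have hlx : x.length ≤ n := by omega
  have hly : y.length ≤ n := by omega
  obtain ⟨⟨e, he⟩, hMg, -⟩ := findM_prop g n n
  have hnM := findM_lt (n := n) (g := g) (by omega)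
  set M := findM g n n with hMdef
  have hM1 : 1 ≤ M := by rw [he]; exact Nat.one_le_two_pow
  have hn1 : (1 : ℝ) ≤ (n : ℝ) + 1 := by
    have : (0 : ℝ) ≤ n := by positivity
    linarith
  have hexp0 : (0 : ℝ) ≤ 2 - γ / 22 := by linarith
  by_cases hM : M < M0
  · -- bounded length
    have hrun : ∀ ρ : ℕ → ℕ, (∀ i, ρ i < 2 ^ b) →
        (mainProg g (2 * g) M0).output ρ x y = ED x y ∧
        (mainProg g (2 * g) M0).top ρ (State.init x y) < 2 ^ b ∧
        (mainProg g (2 * g) M0).time ρ (State.init x y) ≤ 100 + (n * (4 * g + 20) +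
          ((y.length + 1) * 14 + x.length * (62 + y.length * 122))) := by
      intro ρ hρ
      obtain ⟨E, hEρ, hEN, hBig, hBdd⟩ := run_facts (K := 2 * g) hg21 hM0 hn hb hsym hρ
      obtain ⟨⟨-, h1⟩, -, h3, h4⟩ := main_small hn hBig hM hBdd
      rw [hEρ] at h1 h3 h4
      rw [hEN] at h4
      exact ⟨h1, h4, h3⟩
    refine ⟨fun ρ hρ => ⟨(hrun ρ hρ).2.1, ?_⟩, fun T _ => ?_⟩
    · have h1 := (hrun ρ hρ).2.2
      have h2 : n + 1 ≤ (2 * M0) ^ g := by
        have : (2 * M) ^ g ≤ (2 * M0) ^ g := Nat.pow_le_pow_left (by omega) _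
        omega
      have h3 : 100 + (n * (4 * g + 20) +
          ((y.length + 1) * 14 + x.length * (62 + y.length * 122))) ≤
          (4 * g + 340) * ((n + 1) * (n + 1)) := by
        have h4 : x.length * (62 + y.length * 122) ≤ n * (62 + n * 122) :=
          Nat.mul_le_mul hlx (by omega)
        have h5 : n * (62 + n * 122) = 62 * n + 122 * (n * n) := by ring
        have h6 : (4 * g + 340) * ((n + 1) * (n + 1)) =
          4 * (g * (n * n)) + 8 * (g * n) + 4 * g + 340 * (n * n) + 680 * n + 340 := by ring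
        have h7 : n * (4 * g + 20) = 4 * (g * n) + 20 * n := by ring
        rw [h6, h7]
        omega
      have h4 : (mainProg g (2 * g) M0).time ρ (State.init x y) ≤
          (4 * g + 340) * ((2 * M0) ^ g * (2 * M0) ^ g) :=
        h1.trans (h3.trans (Nat.mul_le_mul_left _ (Nat.mul_le_mul h2 h2)))
      have h5 : (1 : ℝ) ≤ ((n : ℝ) + 1) ^ (2 - γ / 22) := Real.one_le_rpow hn1 hexp0
      have h6 : ((mainProg g (2 * g) M0).time ρ (State.init x y) : ℝ) ≤
          ((4 * g + 340) * ((2 * M0) ^ g * (2 * M0) ^ g) : ℕ) := by exact_mod_cast h4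
      have h7 : (0 : ℝ) ≤ 2 * ((1038 + 4 * g + 1692 * (2 * g) : ℕ) : ℝ) := by positivity
      have h8 : (0 : ℝ) ≤ (((4 * g + 340) * ((2 * M0) ^ g * (2 * M0) ^ g) : ℕ) : ℝ) := by
        positivity
      calc ((mainProg g (2 * g) M0).time ρ (State.init x y) : ℝ) ≤
            (2 * ((1038 + 4 * g + 1692 * (2 * g) : ℕ) : ℝ) +
              ((4 * g + 340) * ((2 * M0) ^ g * (2 * M0) ^ g) : ℕ)) * 1 := by linarith
        _ ≤ _ := mul_le_mul_of_nonneg_left h5 (by linarith)
    · have hall : ∀ ρ : Fin T → Fin (2 ^ b),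
          Guarantee ε γ x y n ((mainProg g (2 * g) M0).output (tape ρ) x y) := by
        intro ρ
        rw [(hrun _ (tape_lt ρ)).1]
        exact guarantee_exact hε
      have : Nat.card {ρ : Fin T → Fin (2 ^ b) // Guarantee ε γ x y n
          ((mainProg g (2 * g) M0).output (tape ρ) x y)} = Nat.card (Fin T → Fin (2 ^ b)) :=
        Nat.card_congr (Equiv.subtypeUnivEquiv hall)
      omega
  · -- unbounded length
    have hMM : M0 ≤ M := not_lt.mp hM
    have hM2 : 2 ≤ M := by omega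
    have hMn : M ^ g ≤ n := by
      rcases hMg with h | h
      · exact h
      · omega
    have h21 : M ^ 21 ≤ n := (Nat.pow_le_pow_right (by omega) hg21).trans hMn
    obtain ⟨hb1, hb2⟩ := hbase M hMM
    have hrun : ∀ ρ : ℕ → ℕ, (∀ i, ρ i < 2 ^ b) →
        (if ED x y ≤ n / M then (mainProg g (2 * g) M0).output ρ x y = ED x y
          else ((mainProg g (2 * g) M0).run ρ (State.init x y)).coins = M ^ 8 ∧
            (mainProg g (2 * g) M0).output ρ x y = (mkPar ρ (fun i => x.getD i 0)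
              (fun i => y.getD i 0) x.length y.length n M (2 * g)).out) ∧
        (mainProg g (2 * g) M0).top ρ (State.init x y) < 2 ^ b ∧
        M * (mainProg g (2 * g) M0).time ρ (State.init x y) ≤
          (1038 + 4 * g + 1692 * (2 * g)) * (n * n) := by
      intro ρ hρ
      obtain ⟨E, hEρ, hEN, hBig, hBdd⟩ := run_facts (K := 2 * g) hg21 hM0 hn hb hsym hρ
      have hT : ∀ k, (mkPar ρ (fun i => x.getD i 0) (fun i => y.getD i 0) x.length y.length n M
          (2 * g)).Valid k → (mkPar ρ (fun i => x.getD i 0) (fun i => y.getD i 0) x.length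
          y.length n M (2 * g)).B k * (20 + cBlock (mkPar ρ (fun i => x.getD i 0)
          (fun i => y.getD i 0) x.length y.length n M (2 * g)) k) ≤ 1312 * (n * n) / M := by
        intro k hv
        rw [Nat.le_div_iff_mul_le (by omega), Nat.mul_comm]
        exact block_time _ hM2 hlx hly hv
      obtain ⟨h1, -, h3, h4⟩ := main_big hn hBig hMM _ (by rw [hEρ]) _ hT hBdd
      rw [hEρ] at h1 h3 h4
      rw [hEN] at h4
      refine ⟨h1, h4, ?_⟩
      exact (Nat.mul_le_mul_left _ h3).trans (total_time (mkPar ρ (fun i => x.getD i 0)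
        (fun i => y.getD i 0) x.length y.length n M (2 * g)) g hM2 hlx hly h21)
    refine ⟨fun ρ hρ => ⟨(hrun ρ hρ).2.1, ?_⟩, fun T hT => ?_⟩
    · -- the time
      have h1 := (hrun ρ hρ).2.2
      have hMpos : (0 : ℝ) < M := by positivity
      have hgpos : (0 : ℝ) < g := by
        have : 0 < g := by omega
        exact_mod_cast this
      have h2 : (M : ℝ) * ((mainProg g (2 * g) M0).time ρ (State.init x y) : ℝ) ≤
          ((1038 + 4 * g + 1692 * (2 * g) : ℕ) : ℝ) * ((n : ℝ) * n) := by exact_mod_cast h1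
      have h3 : ((n : ℝ) + 1) ^ (1 / (g : ℝ)) ≤ 2 * M := by
        have h4 : ((n : ℝ) + 1) ≤ (2 * (M : ℝ)) ^ g := by
          have : n + 1 ≤ (2 * M) ^ g := hnM
          exact_mod_cast this
        calc ((n : ℝ) + 1) ^ (1 / (g : ℝ)) ≤ ((2 * (M : ℝ)) ^ g) ^ (1 / (g : ℝ)) :=
              Real.rpow_le_rpow (by linarith) h4 (by positivity)
          _ = 2 * M := by
              rw [← Real.rpow_natCast, ← Real.rpow_mul (by positivity), mul_one_div,
                div_self hgpos.ne', Real.rpow_one]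
      have h5 : ((n : ℝ) + 1) ^ (2 - γ / 22) = ((n : ℝ) + 1) ^ (2 : ℝ) *
          ((n : ℝ) + 1) ^ (-(γ / 22)) := by
        rw [← Real.rpow_add (by linarith)]; congr 1
      have h6 : ((n : ℝ) + 1) ^ (γ / 22) ≤ 2 * M :=
        (Real.rpow_le_rpow_of_exponent_le hn1 hg2).trans h3
      have h7 : 1 ≤ 2 * (M : ℝ) * ((n : ℝ) + 1) ^ (-(γ / 22)) := by
        rw [Real.rpow_neg (by linarith), ← div_eq_mul_inv, one_le_div (by positivity)]
        exact h6
      set t := ((mainProg g (2 * g) M0).time ρ (State.init x y) : ℝ) with ht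
      set C1 := ((1038 + 4 * g + 1692 * (2 * g) : ℕ) : ℝ) with hC1
      have hC1p : 0 ≤ C1 := by positivity
      have h8 : (n : ℝ) * n ≤ ((n : ℝ) + 1) ^ (2 : ℝ) := by
        rw [Real.rpow_two]; nlinarith
      set A := ((n : ℝ) + 1) ^ (2 : ℝ) with hA
      set B := ((n : ℝ) + 1) ^ (-(γ / 22)) with hB
      have hAp : 0 ≤ A := by positivity
      have hBp : 0 ≤ B := by positivity
      have h9 : (M : ℝ) * t ≤ M * (2 * C1 * (A * B)) := by
        calc (M : ℝ) * t ≤ C1 * (n * n) := h2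
          _ ≤ C1 * A := mul_le_mul_of_nonneg_left h8 hC1p
          _ = C1 * A * 1 := (mul_one _).symm
          _ ≤ C1 * A * (2 * M * B) := mul_le_mul_of_nonneg_left h7 (by positivity)
          _ = _ := by ring
      have h10 : t ≤ 2 * C1 * (A * B) := le_of_mul_le_mul_left h9 hMpos
      rw [h5]
      have h11 : (0 : ℝ) ≤ (((4 * g + 340) * ((2 * M0) ^ g * (2 * M0) ^ g) : ℕ) : ℝ) *
          (A * B) := by positivity
      linarith
    · -- the probability
      have hQN : M ^ 12 ∣ 2 ^ b := by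
        rw [he, ← pow_mul]
        apply pow_dvd_pow
        have h1 : 2 ^ (e * 12) < 2 ^ b := by
          calc 2 ^ (e * 12) = M ^ 12 := by rw [he, ← pow_mul]
            _ ≤ M ^ 21 := Nat.pow_le_pow_right (by omega) (by norm_num)
            _ ≤ n := h21
            _ < n + 2 := by omega
            _ = (n + 2) ^ 1 := (pow_one _).symm
            _ ≤ (n + 2) ^ ((M0 + 2 * g + 8) * (100 + 4 * g) + 1) :=
                Nat.pow_le_pow_right (by omega) (by omega)
            _ ≤ 2 ^ b := hb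
        exact ((Nat.pow_lt_pow_iff_right (by norm_num)).mp h1).le
      by_cases hED : ED x y ≤ n / M
      · have hall : ∀ ρ : Fin T → Fin (2 ^ b),
            Guarantee ε γ x y n ((mainProg g (2 * g) M0).output (tape ρ) x y) := by
          intro ρ
          have h1 := (hrun _ (tape_lt ρ)).1
          rw [if_pos hED] at h1
          rw [h1]
          exact guarantee_exact hε
        have : Nat.card {ρ : Fin T → Fin (2 ^ b) // Guarantee ε γ x y n
            ((mainProg g (2 * g) M0).output (tape ρ) x y)} = Nat.card (Fin T → Fin (2 ^ b)) :=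
          Nat.card_congr (Equiv.subtypeUnivEquiv hall)
        omega
      · have hTm : M ^ 8 ≤ T := by
          have h0 : ∀ i : ℕ, (fun _ : ℕ => 0) i < 2 ^ b := fun _ => Nat.pow_pos (by norm_num)
          have h1 := (hrun _ h0).1
          rw [if_neg hED] at h1
          rw [← h1.1]
          exact hT _ h0
        have hexp : 6 * ((2 * g : ℕ) : ℝ) * ((n : ℝ) + 1) ^ 3 ≤ Real.exp ((M : ℝ) ^ 2 / 16) := by
          refine le_trans ?_ hb2
          have h4 : ((n : ℝ) + 1) ≤ (2 * (M : ℝ)) ^ g := by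
            have : n + 1 ≤ (2 * M) ^ g := hnM
            exact_mod_cast this
          have h5 : ((n : ℝ) + 1) ^ 3 ≤ ((2 * (M : ℝ)) ^ g) ^ 3 :=
            pow_le_pow_left₀ (by linarith) h4 3
          exact mul_le_mul_of_nonneg_left h5 (by positivity)
        have h2 := two_thirds (X := fun i => x.getD i 0) (Y := fun i => y.getD i 0) (K := 2 * g)
          hM2 hlx hly hQN hTm hexp
        refine h2.trans (Nat.mul_le_mul_left _ ?_)
        have himp : ∀ z : Fin T → Fin (2 ^ b), Acc (mkPar (tape z) (fun i => x.getD i 0)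
            (fun i => y.getD i 0) x.length y.length n M (2 * g)) →
            Guarantee ε γ x y n ((mainProg g (2 * g) M0).output (tape z) x y) := by
          intro z hz
          have h1 := (hrun _ (tape_lt z)).1
          rw [if_neg hED] at h1
          rw [h1.2]
          exact out_guarantee hn hg1 hγ1 hγ0 hM2 hMn hnM rfl (by exact_mod_cast hb1) hED hz
        refine Nat.card_le_card_of_injective (Subtype.map id himp) ?_
        intro z z' hz
        apply Subtype.ext
        simpa [Subtype.map] using congrArg Subtype.val hz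

/-- The theorem in terms of executions of the machine. -/
theorem approx_exec (γ : ℝ) (hγ0 : 0 < γ) (hγ1 : γ ≤ 1) (ε : ℝ) (hε : 0 < ε) :
    ∃ (C : ℝ) (k : ℕ) (P : Prog), ∀ (x y : List ℕ) (n b : ℕ), n = max x.length y.length →
      (n + 2) ^ k ≤ 2 ^ b → (∀ a ∈ x ++ y, a < 2 ^ b) →
      (∀ ρ : ℕ → ℕ, (∀ i, ρ i < 2 ^ b) → ∃ (t : ℕ) (s : State),
        Exec (2 ^ b) ρ P (State.init x y) t s ∧ (t : ℝ) ≤ C * ((n : ℝ) + 1) ^ (2 - γ / 22)) ∧
      ∀ T : ℕ, C * ((n : ℝ) + 1) ^ (2 - γ / 22) ≤ T →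
        2 * Nat.card (Fin T → Fin (2 ^ b)) ≤
          3 * Nat.card {ρ : Fin T → Fin (2 ^ b) // ∃ (t : ℕ) (s : State),
            Exec (2 ^ b) (tape ρ) P (State.init x y) t s ∧
              Guarantee ε γ x y n (s.reg 2)} := by
  obtain ⟨C, k, P, h⟩ := approx γ hγ0 hγ1 ε hε
  refine ⟨C, k, P, fun x y n b hn hb hsym => ?_⟩
  obtain ⟨h1, h2⟩ := h x y n b hn hb hsym
  have hN : 0 < 2 ^ b := Nat.pow_pos (by norm_num)
  have hex : ∀ ρ : ℕ → ℕ, (∀ i, ρ i < 2 ^ b) →
      Exec (2 ^ b) ρ P (State.init x y) (P.time ρ (State.init x y)) (P.run ρ (State.init x y)) :=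
    fun ρ hρ => exec_of_top hN P _ (h1 ρ hρ).1
  refine ⟨fun ρ hρ => ⟨_, _, hex ρ hρ, (h1 ρ hρ).2⟩, fun T hT => ?_⟩
  refine (h2 T (fun ρ hρ => ?_)).trans (Nat.mul_le_mul_left _ ?_)
  · have h3 := P.coins_le ρ (State.init x y)
    rw [init_coins, Nat.zero_add] at h3
    have h4 : ((P.run ρ (State.init x y)).coins : ℝ) ≤ T :=
      (Nat.cast_le.mpr h3).trans ((h1 ρ hρ).2.trans hT)
    exact_mod_cast h4
  · have himp : ∀ z : Fin T → Fin (2 ^ b), Guarantee ε γ x y n (P.output (tape z) x y) →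
        ∃ (t : ℕ) (s : State), Exec (2 ^ b) (tape z) P (State.init x y) t s ∧
          Guarantee ε γ x y n (s.reg 2) :=
      fun z hz => ⟨_, _, hex _ (tape_lt z), hz⟩
    refine Nat.card_le_card_of_injective (Subtype.map id himp) ?_
    intro z z' hz
    apply Subtype.ext
    simpa [Subtype.map] using congrArg Subtype.val hz

end Vale.Agent.P315

namespace Vale.Agent.Results.P315.CalmAlignments

open Vale.Agent.P315

/-- (1) The edit distance is the least cost of an alignment. (2) An alignment with `t` gaps has at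
most `(t + 1) S + t` positions that are not calm for the scale gap `S`. (3) For every `0 < γ ≤ 1`
and `ε > 0` there is a randomised word RAM program with running time `O(n ^ (2 - γ / 22))` on all
inputs whose output `D` satisfies, with probability at least `2/3`, `ED x y ≤ D` and
`D ≤ (1 + ε) cost f + 2 rough f` for every alignment `f`, where `rough f` is the number of
positions that are not calm for the scale gap `n ^ γ`. -/
theorem result :
    (∀ x y : List ℕ,
      IsLeast {c : ℕ | ∃ f, IsAlignment x y f ∧ c = alignCost x y f} (ED x y)) ∧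
    (∀ (f : ℕ → ℕ) (l : ℕ) (S : ℝ), 0 ≤ S →
      (rough f l S : ℝ) ≤ (gaps f l + 1) * S + gaps f l) ∧
    ∀ γ : ℝ, 0 < γ → γ ≤ 1 → ∀ ε : ℝ, 0 < ε → ∃ (C : ℝ) (k : ℕ) (P : Prog),
      ∀ (x y : List ℕ) (n b : ℕ), n = max x.length y.length → (n + 2) ^ k ≤ 2 ^ b →
        (∀ a ∈ x ++ y, a < 2 ^ b) →
        (∀ ρ : ℕ → ℕ, (∀ i, ρ i < 2 ^ b) → ∃ (t : ℕ) (s : State),
          Exec (2 ^ b) ρ P (State.init x y) t s ∧
            (t : ℝ) ≤ C * ((n : ℝ) + 1) ^ (2 - γ / 22)) ∧
        ∀ T : ℕ, C * ((n : ℝ) + 1) ^ (2 - γ / 22) ≤ T →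
          2 * Nat.card (Fin T → Fin (2 ^ b)) ≤
            3 * Nat.card {ρ : Fin T → Fin (2 ^ b) // ∃ (t : ℕ) (s : State),
              Exec (2 ^ b) (tape ρ) P (State.init x y) t s ∧
                Guarantee ε γ x y n (s.reg 2)} :=
  ⟨isLeast_alignCost, rough_le_gaps, fun γ h0 h1 ε hε => approx_exec γ h0 h1 ε hε⟩

end Vale.Agent.Results.P315.CalmAlignments
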