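import Vale.Agent.P315.Top.StmtMulFinal

/-! P315: for every fixed `ε > 0`, a `(1 + ε)`-approximation of the edit distance in truly
subquadratic time. -/

set_option autoImplicit false

namespace Vale.Agent.Results.P315.TrulySubquadratic

open Vale.Agent.P315

/-- For every `ε > 0` there are `δ > 0` and one randomised word RAM program with running time
`O(n ^ (2 - δ))` on all inputs of length at most `n` and all tapes of random words, whose output
`D` satisfies `ED x y ≤ D ≤ (1 + ε) ED x y` with probability at least `2/3`. -/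
theorem result : ∀ ε : ℝ, 0 < ε → ∃ δ : ℝ, 0 < δ ∧ ∃ (C : ℝ) (k : ℕ) (P : Prog),
    ∀ (x y : List ℕ) (n b : ℕ), n = max x.length y.length → (n + 2) ^ k ≤ 2 ^ b →
      (∀ a ∈ x ++ y, a < 2 ^ b) →
      (∀ ρ : ℕ → ℕ, (∀ i, ρ i < 2 ^ b) → ∃ (t : ℕ) (s : State),
        Exec (2 ^ b) ρ P (State.init x y) t s ∧ (t : ℝ) ≤ C * ((n : ℝ) + 1) ^ (2 - δ)) ∧
      ∀ T : ℕ, C * ((n : ℝ) + 1) ^ (2 - δ) ≤ T →
        2 * Nat.card (Fin T → Fin (2 ^ b)) ≤
          3 * Nat.card {ρ : Fin T → Fin (2 ^ b) // ∃ (t : ℕ) (s : State),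
            Exec (2 ^ b) (tape ρ) P (State.init x y) t s ∧
              (ED x y ≤ s.reg 2 ∧ ((s.reg 2 : ℕ) : ℝ) ≤ (1 + ε) * ED x y)} :=
  Top.stmtMul

end Vale.Agent.Results.P315.TrulySubquadratic
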